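import Mathlib.Combinatorics.Matroid.Minor.Contract
import Mathlib.Combinatorics.Matroid.Rank.ENat

/-!
# Augmenting a common independent set of two arbitrary (possibly infinite) matroids

For a common independent set `J` of two matroids `M`, `N` on the same ground set we show:
either `J` splits as `T ∪ (J \ T)` with `cl_M T ∪ cl_N (J \ T) = E`, or there are finite sets
`X` (outside `J`) and `Y ⊆ J` with `|X| = |Y| + 1` such that `(J \ Y) ∪ X` is again a common
independent set.
-/

namespace Vale.Agent.Lib.P068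

open Set Matroid

variable {α : Type*} {M N : Matroid α} {I J T : Set α} {e f : α}

/-- single exchange -/
lemma exch (hI : M.Indep I) (he : e ∈ M.closure I) (hf : f ∈ I)
    (hef : e ∉ M.closure (I \ {f})) :
    M.Indep (insert e (I \ {f})) ∧ M.closure (insert e (I \ {f})) = M.closure I := by
  have hI' : M.Indep (I \ {f}) := hI.subset sdiff_subset
  have heE : e ∈ M.E := mem_ground_of_mem_closure he
  refine ⟨?_, ?_⟩
  · rw [hI'.insert_indep_iff]
    exact Or.inl ⟨heE, hef⟩
  · have h1 : insert f (I \ {f}) = I := by simp [hf]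
    have h2 : e ∈ M.closure (insert f (I \ {f})) \ M.closure (I \ {f}) := by
      rw [h1]; exact ⟨he, hef⟩
    rw [closure_insert_congr h2, h1]

/-- If `e` is spanned by `J` and by each `J \ {f}`, `f ∈ T`, then it is spanned by `J \ T`. -/
lemma mem_closure_sdiff_of_forall (hJ : M.Indep J) (he : e ∈ M.closure J)
    (h : ∀ f ∈ T, e ∈ M.closure (J \ {f})) : e ∈ M.closure (J \ T) := by
  have key := hJ.closure_sInter_eq_biInter_closure_of_forall_subset
    (Js := insert J ((fun f => J \ {f}) '' T)) (insert_nonempty _ _)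
    (by
      rintro K (rfl | ⟨f, -, rfl⟩)
      · exact Subset.rfl
      · exact sdiff_subset)
  have hs : ⋂₀ (insert J ((fun f => J \ {f}) '' T)) = J \ T := by
    ext x
    simp only [sInter_insert, sInter_image, mem_inter_iff, mem_iInter, mem_sdiff,
      mem_singleton_iff]
    constructor
    · rintro ⟨hxJ, hx⟩
      exact ⟨hxJ, fun hxT => (hx x hxT).2 rfl⟩
    · rintro ⟨hxJ, hxT⟩
      exact ⟨hxJ, fun f hf => ⟨hxJ, fun hxf => hxT (hxf ▸ hf)⟩⟩
  rw [hs] at key
  rw [key]
  simp only [mem_iInter]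
  rintro K (rfl | ⟨f, hf, rfl⟩)
  · exact he
  · exact h f hf

/-- elements outside `J` not `N`-spanned by `J \ T` -/
def srcSet (N : Matroid α) (J T : Set α) : Set α := N.E \ (J ∪ N.closure (J \ T))

/-- elements of `J` needed to `M`-span some element of `S` -/
def nextT (M : Matroid α) (J S : Set α) : Set α := {f ∈ J | ∃ e ∈ S, e ∉ M.closure (J \ {f})}

/-- the layers inside `J` -/
def Tseq (M N : Matroid α) (J : Set α) : ℕ → Set α
  | 0 => ∅
  | m + 1 => nextT M J (srcSet N J (Tseq M N J m))

/-- the layers outside `J` -/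
def Sseq (M N : Matroid α) (J : Set α) (m : ℕ) : Set α := srcSet N J (Tseq M N J m)

lemma srcSet_mono {T T' : Set α} (h : T ⊆ T') : srcSet N J T ⊆ srcSet N J T' := by
  intro x hx
  refine ⟨hx.1, fun hx' => hx.2 ?_⟩
  rcases hx' with hx' | hx'
  · exact Or.inl hx'
  · exact Or.inr (N.closure_subset_closure (sdiff_subset_sdiff_right h) hx')

lemma nextT_mono {S S' : Set α} (h : S ⊆ S') : nextT M J S ⊆ nextT M J S' := by
  rintro x ⟨hxJ, e, he, hex⟩
  exact ⟨hxJ, e, h he, hex⟩

lemma Tseq_subset (M N : Matroid α) (J : Set α) (m : ℕ) : Tseq M N J m ⊆ J := by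
  cases m with
  | zero => exact empty_subset _
  | succ m => exact fun x hx => hx.1

lemma Tseq_succ_mono (M N : Matroid α) (J : Set α) (m : ℕ) :
    Tseq M N J m ⊆ Tseq M N J (m + 1) := by
  induction m with
  | zero => exact empty_subset _
  | succ m ih => exact nextT_mono (srcSet_mono ih)

lemma Sseq_succ_mono (M N : Matroid α) (J : Set α) (m : ℕ) :
    Sseq M N J m ⊆ Sseq M N J (m + 1) :=
  srcSet_mono (Tseq_succ_mono M N J m)

lemma Sseq_disjoint (M N : Matroid α) (J : Set α) (m : ℕ) : Disjoint (Sseq M N J m) J := by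
  rw [disjoint_left]
  exact fun x hx hxJ => hx.2 (Or.inl hxJ)

/-- The main inductive claim. -/
lemma claim (hJM : M.Indep J) (hJN : N.Indep J) (m : ℕ) :
    (∀ j < m, Sseq M N J j ⊆ M.closure J) → ∀ e ∈ Sseq M N J m, ∃ X Y : Set α,
      X.Finite ∧ Y.Finite ∧ X.ncard = Y.ncard + 1 ∧ e ∈ X ∧ X ⊆ Sseq M N J m ∧
      Y ⊆ Tseq M N J m ∧
      (∀ g ∈ J, g ∉ Tseq M N J m → X \ {e} ⊆ M.closure (J \ {g})) ∧
      N.Indep ((J \ Y) ∪ X) ∧ M.Indep ((J \ Y) ∪ (X \ {e})) ∧
      M.closure ((J \ Y) ∪ (X \ {e})) = M.closure J := by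
  induction m with
  | zero =>
    intro _ e he
    refine ⟨{e}, ∅, finite_singleton e, finite_empty, by simp, mem_singleton e, ?_,
      Subset.rfl, ?_, ?_, ?_, ?_⟩
    · simpa using he
    · intro g _ _; simp
    · have h1 : e ∈ N.E \ N.closure J := by
        refine ⟨he.1, fun h => he.2 (Or.inr ?_)⟩
        simpa [Tseq] using h
      simp only [sdiff_empty, union_singleton]
      rw [hJN.insert_indep_iff]
      exact Or.inl h1
    · simpa using hJM
    · simp
  | succ m ih =>
    intro hm e he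
    have hm' : ∀ j < m, Sseq M N J j ⊆ M.closure J := fun j hj => hm j (Nat.lt_succ_of_lt hj)
    by_cases heS : e ∈ Sseq M N J m
    · obtain ⟨X, Y, hXf, hYf, hc, heX, hXS, hYT, hQ, hN, hM, hcl⟩ := ih hm' e heS
      exact ⟨X, Y, hXf, hYf, hc, heX, hXS.trans (Sseq_succ_mono M N J m),
        hYT.trans (Tseq_succ_mono M N J m),
        fun g hg hgT => hQ g hg (fun h => hgT (Tseq_succ_mono M N J m h)), hN, hM, hcl⟩
    -- `e` is new at level `m + 1`
    have heE : e ∈ N.E := he.1
    have heJ : e ∉ J := fun h => he.2 (Or.inl h)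
    have heT1 : e ∉ N.closure (J \ Tseq M N J (m + 1)) := fun h => he.2 (Or.inr h)
    have heT0 : e ∈ N.closure (J \ Tseq M N J m) := by
      by_contra h
      exact heS ⟨heE, fun h' => h'.elim heJ h⟩
    have heclJ : e ∈ N.closure J := N.closure_subset_closure sdiff_subset heT0
    obtain ⟨f, hfT, hef⟩ : ∃ f ∈ Tseq M N J (m + 1), e ∉ N.closure (J \ {f}) := by
      by_contra hcon
      push Not at hcon
      exact heT1 (mem_closure_sdiff_of_forall hJN heclJ hcon)
    have hfT0 : f ∉ Tseq M N J m := fun h =>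
      hef (N.closure_subset_closure (sdiff_subset_sdiff_right (singleton_subset_iff.2 h)) heT0)
    obtain ⟨hfJ, e', he'S, he'f⟩ := hfT
    obtain ⟨X', Y', hXf, hYf, hc, heX, hXS, hYT, hQ, hN, hM, hcl⟩ := ih hm' e' he'S
    have heX' : e ∉ X' := fun h => heS (hXS h)
    have hfY' : f ∉ Y' := fun h => hfT0 (hYT h)
    have hfX' : f ∉ X' := fun h => (disjoint_left.1 (Sseq_disjoint M N J m)) (hXS h) hfJ
    have he'J : e' ∉ J := fun h => (disjoint_left.1 (Sseq_disjoint M N J m)) he'S h
    refine ⟨insert e X', insert f Y', hXf.insert e, hYf.insert f, ?_, mem_insert e X', ?_, ?_,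
      ?_, ?_, ?_⟩
    · rw [ncard_insert_of_notMem heX' hXf, ncard_insert_of_notMem hfY' hYf, hc]
    · exact insert_subset he (hXS.trans (Sseq_succ_mono M N J m))
    · exact insert_subset ⟨hfJ, e', he'S, he'f⟩ (hYT.trans (Tseq_succ_mono M N J m))
    · intro g hgJ hgT x hx
      have hxX' : x ∈ X' := by
        rcases hx.1 with rfl | h
        · exact absurd rfl hx.2
        · exact h
      by_contra hxg
      exact hgT ⟨hgJ, x, hXS hxX', hxg⟩
    · -- the `N`-side
      have hset : (J \ insert f Y') ∪ insert e X' = insert e (((J \ Y') ∪ X') \ {f}) := by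
        ext x
        simp only [mem_union, mem_sdiff, mem_insert_iff, mem_singleton_iff, not_or]
        constructor
        · rintro (⟨hxJ, hxf, hxY⟩ | rfl | hxX)
          · exact Or.inr ⟨Or.inl ⟨hxJ, hxY⟩, hxf⟩
          · exact Or.inl rfl
          · exact Or.inr ⟨Or.inr hxX, fun h => hfX' (h ▸ hxX)⟩
        · rintro (rfl | ⟨⟨hxJ, hxY⟩ | hxX, hxf⟩)
          · exact Or.inr (Or.inl rfl)
          · exact Or.inl ⟨hxJ, hxf, hxY⟩
          · exact Or.inr (Or.inr hxX)
      rw [hset]
      have hsub : J \ Tseq M N J m ⊆ (J \ Y') ∪ X' :=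
        (sdiff_subset_sdiff_right hYT).trans subset_union_left
      refine (exch hN (N.closure_subset_closure hsub heT0) (Or.inl ⟨hfJ, hfY'⟩) ?_).1
      intro hcon
      have hind : N.Indep ((((J \ Y') ∪ X') \ {f}) ∪ (J \ Tseq M N J m)) :=
        hN.subset (union_subset sdiff_subset hsub)
      have hmem : e ∈ N.closure ((((J \ Y') ∪ X') \ {f}) ∩ (J \ Tseq M N J m)) := by
        rw [hind.closure_inter_eq_inter_closure]
        exact ⟨hcon, heT0⟩
      refine hef (N.closure_subset_closure ?_ hmem)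
      rintro x ⟨⟨_, hxf⟩, hxJ, _⟩
      exact ⟨hxJ, hxf⟩
    · -- the `M`-side
      have hXe : insert e X' \ {e} = X' := by
        ext x
        simp only [mem_sdiff, mem_insert_iff, mem_singleton_iff]
        constructor
        · rintro ⟨rfl | h, hne⟩
          · exact absurd rfl hne
          · exact h
        · exact fun h => ⟨Or.inr h, fun hxe => heX' (hxe ▸ h)⟩
      have hset : (J \ insert f Y') ∪ X' = insert e' (((J \ Y') ∪ (X' \ {e'})) \ {f}) := by
        ext x
        simp only [mem_union, mem_sdiff, mem_insert_iff, mem_singleton_iff, not_or]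
        constructor
        · rintro (⟨hxJ, hxf, hxY⟩ | hxX)
          · exact Or.inr ⟨Or.inl ⟨hxJ, hxY⟩, hxf⟩
          · by_cases hxe : x = e'
            · exact Or.inl hxe
            · exact Or.inr ⟨Or.inr ⟨hxX, hxe⟩, fun h => hfX' (h ▸ hxX)⟩
        · rintro (rfl | ⟨⟨hxJ, hxY⟩ | ⟨hxX, _⟩, hxf⟩)
          · exact Or.inr heX
          · exact Or.inl ⟨hxJ, hxf, hxY⟩
          · exact Or.inr hxX
      rw [hXe, hset]
      have he'cl : e' ∈ M.closure ((J \ Y') ∪ (X' \ {e'})) := by
        rw [hcl]; exact hm m (Nat.lt_succ_self m) he'S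
      have hnot : e' ∉ M.closure (((J \ Y') ∪ (X' \ {e'})) \ {f}) := by
        intro hcon
        refine he'f (M.closure_subset_closure_of_subset_closure ?_ hcon)
        rintro x ⟨hx | hx, hxf⟩
        · exact M.mem_closure_of_mem ⟨hx.1, hxf⟩ (sdiff_subset.trans hJM.subset_ground)
        · exact hQ f hfJ hfT0 hx
      have hex := exch hM he'cl (Or.inl ⟨hfJ, hfY'⟩) hnot
      exact ⟨hex.1, hex.2.trans hcl⟩

/-- **Augmentation dichotomy** for a common independent set of two arbitrary matroids. -/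
theorem certificate_or_augment (hE : M.E = N.E) (hJM : M.Indep J) (hJN : N.Indep J) :
    (∃ T ⊆ J, M.closure T ∪ N.closure (J \ T) = M.E) ∨
    (∃ X Y : Set α, X.Finite ∧ Y.Finite ∧ X.ncard = Y.ncard + 1 ∧ Disjoint X J ∧ Y ⊆ J ∧
      M.Indep ((J \ Y) ∪ X) ∧ N.Indep ((J \ Y) ∪ X)) := by
  classical
  by_cases h : ∀ m, Sseq M N J m ⊆ M.closure J
  · left
    refine ⟨⋃ m, Tseq M N J m, iUnion_subset (Tseq_subset M N J), ?_⟩
    apply subset_antisymm
    · exact union_subset (M.closure_subset_ground _) (hE ▸ N.closure_subset_ground _)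
    intro e he
    by_cases heJ : e ∈ J
    · by_cases heT : e ∈ ⋃ m, Tseq M N J m
      · exact Or.inl (M.mem_closure_of_mem' heT he)
      · exact Or.inr (N.mem_closure_of_mem' ⟨heJ, heT⟩ (hE ▸ he))
    by_cases hex : ∃ m, e ∈ Sseq M N J m
    · obtain ⟨m, hm⟩ := hex
      left
      have h1 : e ∈ M.closure (J \ (J \ Tseq M N J (m + 1))) := by
        refine mem_closure_sdiff_of_forall hJM (h m hm) ?_
        rintro g ⟨hgJ, hgT⟩
        by_contra hcon
        exact hgT ⟨hgJ, e, hm, hcon⟩
      refine M.closure_subset_closure ?_ h1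
      rintro x ⟨_, hx⟩
      have hxT : x ∈ Tseq M N J (m + 1) := by
        by_contra hxT
        exact hx ⟨by assumption, hxT⟩
      exact mem_iUnion.2 ⟨m + 1, hxT⟩
    · right
      push Not at hex
      have h1 : ∀ m, e ∈ N.closure (J \ Tseq M N J m) := by
        intro m
        by_contra hcon
        exact hex m ⟨hE ▸ he, fun h' => h'.elim heJ hcon⟩
      have h2 := hJN.closure_iInter_eq_biInter_closure_of_forall_subset
        (Js := fun m => J \ Tseq M N J m) (fun m => sdiff_subset)
      have h3 : (⋂ m, J \ Tseq M N J m) = J \ ⋃ m, Tseq M N J m := by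
        ext x
        simp only [mem_iInter, mem_sdiff, mem_iUnion, not_exists]
        exact ⟨fun hx => ⟨(hx 0).1, fun m => (hx m).2⟩, fun hx m => ⟨hx.1, hx.2 m⟩⟩
      rw [← h3, h2]
      exact mem_iInter.2 h1
  · right
    push Not at h
    let m := Nat.find h
    have hm : ¬ Sseq M N J m ⊆ M.closure J := Nat.find_spec h
    have hlt : ∀ j < m, Sseq M N J j ⊆ M.closure J := fun j hj => by
      by_contra hcon
      exact Nat.find_min h hj hcon
    obtain ⟨e, heS, hecl⟩ := not_subset.1 hm
    obtain ⟨X, Y, hXf, hYf, hc, heX, hXS, hYT, -, hN, hM', hcl⟩ := claim hJM hJN m hlt e heS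
    refine ⟨X, Y, hXf, hYf, hc, (Sseq_disjoint M N J m).mono_left hXS,
      hYT.trans (Tseq_subset M N J m), ?_, hN⟩
    have hset : (J \ Y) ∪ X = insert e ((J \ Y) ∪ (X \ {e})) := by
      ext x
      simp only [mem_union, mem_sdiff, mem_insert_iff, mem_singleton_iff]
      constructor
      · rintro (hx | hx)
        · exact Or.inr (Or.inl hx)
        · by_cases hxe : x = e
          · exact Or.inl hxe
          · exact Or.inr (Or.inr ⟨hx, hxe⟩)
      · rintro (rfl | hx | hx)
        · exact Or.inr heX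
        · exact Or.inl hx
        · exact Or.inr hx.1
    rw [hset, hM'.insert_indep_iff]
    left
    rw [hcl]
    exact ⟨hE ▸ heS.1, hecl⟩

end Vale.Agent.Lib.P068
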