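import Vale.Agent.Lib.P068.Augment

/-!
# Finite defects can be repaired, and invariance under finite perturbations
-/

namespace Vale.Agent.Lib.P068

open Set Matroid

variable {α : Type*} {M N N' : Matroid α}

/-- the intersection property of a pair of matroids -/
def Inter (M N : Matroid α) : Prop :=
  ∃ JM JN : Set α, Disjoint JM JN ∧ M.Indep (JM ∪ JN) ∧ N.Indep (JM ∪ JN) ∧
    M.closure JM ∪ N.closure JN = M.E

lemma encard_le_of_subset_closure {I K G : Set α} (hIK : M.Indep (I ∪ K)) (hdisj : Disjoint K I)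
    (hK : K ⊆ M.closure (I ∪ G)) : K.encard ≤ G.encard := by
  have hI : M.Indep I := hIK.subset subset_union_left
  have hKi : (M ／ I).Indep K := by
    rw [hI.contract_indep_iff]
    exact ⟨hdisj, by rwa [union_comm]⟩
  have hsub : K ⊆ (M ／ I).closure G := by
    rw [contract_closure_eq]
    intro x hx
    exact ⟨by rw [union_comm]; exact hK hx, fun hxI => (disjoint_left.1 hdisj) hx hxI⟩
  calc K.encard = (M ／ I).eRk K := hKi.eRk_eq_encard.symm
    _ ≤ (M ／ I).eRk ((M ／ I).closure G) := (M ／ I).eRk_mono hsub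
    _ = (M ／ I).eRk G := eRk_closure_eq _ _
    _ ≤ G.encard := eRk_le_encard _ _

lemma bound {JM JN F J : Set α} (hdisj : Disjoint JM JN)
    (hcov : M.E ⊆ M.closure (JM ∪ F) ∪ N.closure (JN ∪ F)) (hJM : M.Indep J) (hJN : N.Indep J) :
    (J \ (JM ∪ JN)).encard ≤ ((JM ∪ JN) \ J).encard + (F.encard + F.encard) := by
  classical
  set J0 := JM ∪ JN with hJ0
  set K1 := (J \ J0) ∩ M.closure (JM ∪ F) with hK1
  set K2 := (J \ J0) \ M.closure (JM ∪ F) with hK2
  have h1 : K1.encard ≤ ((JM \ J) ∪ F).encard := by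
    apply encard_le_of_subset_closure (M := M) (I := J ∩ J0)
    · exact hJM.subset (union_subset inter_subset_left (fun x hx => hx.1.1))
    · rw [disjoint_left]
      exact fun x hx hx' => hx.1.2 hx'.2
    · intro x hx
      refine M.closure_subset_closure ?_ hx.2
      rintro y (hy | hy)
      · by_cases hyJ : y ∈ J
        · exact Or.inl ⟨hyJ, Or.inl hy⟩
        · exact Or.inr (Or.inl ⟨hy, hyJ⟩)
      · exact Or.inr (Or.inr hy)
  have h2 : K2.encard ≤ ((JN \ J) ∪ F).encard := by
    apply encard_le_of_subset_closure (M := N) (I := J ∩ J0)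
    · exact hJN.subset (union_subset inter_subset_left (fun x hx => hx.1.1))
    · rw [disjoint_left]
      exact fun x hx hx' => hx.1.2 hx'.2
    · intro x hx
      have hxE : x ∈ M.E := hJM.subset_ground hx.1.1
      have hx2 : x ∈ N.closure (JN ∪ F) := (hcov hxE).resolve_left hx.2
      refine N.closure_subset_closure ?_ hx2
      rintro y (hy | hy)
      · by_cases hyJ : y ∈ J
        · exact Or.inl ⟨hyJ, Or.inr hy⟩
        · exact Or.inr (Or.inl ⟨hy, hyJ⟩)
      · exact Or.inr (Or.inr hy)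
  have h3 : J \ J0 = K1 ∪ K2 := (inter_union_sdiff _ _).symm
  have h4 : J0 \ J = (JM \ J) ∪ (JN \ J) := union_sdiff_distrib ..
  have h5 : ((JM \ J) ∪ (JN \ J)).encard = (JM \ J).encard + (JN \ J).encard :=
    encard_union_eq (hdisj.mono sdiff_subset sdiff_subset)
  calc (J \ J0).encard = (K1 ∪ K2).encard := by rw [h3]
    _ ≤ K1.encard + K2.encard := encard_union_le _ _
    _ ≤ ((JM \ J) ∪ F).encard + ((JN \ J) ∪ F).encard := add_le_add h1 h2
    _ ≤ ((JM \ J).encard + F.encard) + ((JN \ J).encard + F.encard) :=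
        add_le_add (encard_union_le _ _) (encard_union_le _ _)
    _ = (J0 \ J).encard + (F.encard + F.encard) := by
        rw [h4, h5, add_add_add_comm]

lemma window {A B W : Set α} (hW : W.Finite) (h1 : A \ B ⊆ W) (h2 : B \ A ⊆ W) :
    (A \ B).ncard + (B ∩ W).ncard = (B \ A).ncard + (A ∩ W).ncard := by
  have hA : A ∩ W = (A \ B) ∪ (A ∩ B ∩ W) := by
    ext x
    constructor
    · rintro ⟨hxA, hxW⟩
      by_cases hxB : x ∈ B
      · exact Or.inr ⟨⟨hxA, hxB⟩, hxW⟩
      · exact Or.inl ⟨hxA, hxB⟩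
    · rintro (hx | hx)
      · exact ⟨hx.1, h1 hx⟩
      · exact ⟨hx.1.1, hx.2⟩
  have hB : B ∩ W = (B \ A) ∪ (A ∩ B ∩ W) := by
    ext x
    constructor
    · rintro ⟨hxB, hxW⟩
      by_cases hxA : x ∈ A
      · exact Or.inr ⟨⟨hxA, hxB⟩, hxW⟩
      · exact Or.inl ⟨hxB, hxA⟩
    · rintro (hx | hx)
      · exact ⟨hx.1, h2 hx⟩
      · exact ⟨hx.1.2, hx.2⟩
  have hfin : (A ∩ B ∩ W).Finite := hW.subset inter_subset_right
  have hdA : Disjoint (A \ B) (A ∩ B ∩ W) := by
    rw [disjoint_left]; exact fun x hx hx' => hx.2 hx'.1.2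
  have hdB : Disjoint (B \ A) (A ∩ B ∩ W) := by
    rw [disjoint_left]; exact fun x hx hx' => hx.2 hx'.1.1
  rw [hA, hB, ncard_union_eq hdA (hW.subset h1) hfin, ncard_union_eq hdB (hW.subset h2) hfin]
  omega

/-- **Finite defects can be repaired.** -/
theorem finite_defect (hE : M.E = N.E) {JM JN F : Set α} (hF : F.Finite)
    (hdisj : Disjoint JM JN) (hM : M.Indep (JM ∪ JN)) (hN : N.Indep (JM ∪ JN))
    (hcov : M.E ⊆ M.closure (JM ∪ F) ∪ N.closure (JN ∪ F)) : Inter M N := by
  classical
  set J0 := JM ∪ JN with hJ0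
  have aux : ∀ n : ℕ, ∀ J : Set α, M.Indep J → N.Indep J → (J \ J0).Finite → (J0 \ J).Finite →
      (J0 \ J).ncard + (F.ncard + F.ncard) ≤ (J \ J0).ncard + n → Inter M N := by
    intro n
    induction n with
    | zero =>
      intro J hJM hJN hf1 hf2 hle
      rcases certificate_or_augment hE hJM hJN with ⟨T, hTJ, hT⟩ | ⟨X, Y, hXf, hYf, hc, hXJ, hYJ,
        hM', hN'⟩
      · exact ⟨T, J \ T, disjoint_sdiff_right, by rwa [union_sdiff_cancel hTJ],
          by rwa [union_sdiff_cancel hTJ], hT⟩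
      · exfalso
        set J' := (J \ Y) ∪ X with hJ'
        set W := (J \ J0) ∪ (J0 \ J) ∪ X ∪ Y with hW
        have hWf : W.Finite := ((hf1.union hf2).union hXf).union hYf
        have s1 : J' \ J0 ⊆ W := by
          rintro x ⟨hx | hx, hx0⟩
          · exact Or.inl (Or.inl (Or.inl ⟨hx.1, hx0⟩))
          · exact Or.inl (Or.inr hx)
        have s2 : J0 \ J' ⊆ W := by
          rintro x ⟨hx0, hx⟩
          by_cases hxJ : x ∈ J
          · by_cases hxY : x ∈ Y
            · exact Or.inr hxY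
            · exact absurd (Or.inl ⟨hxJ, hxY⟩) hx
          · exact Or.inl (Or.inl (Or.inr ⟨hx0, hxJ⟩))
        have s3 : J \ J0 ⊆ W := fun x hx => Or.inl (Or.inl (Or.inl hx))
        have s4 : J0 \ J ⊆ W := fun x hx => Or.inl (Or.inl (Or.inr hx))
        have w1 := window hWf s1 s2
        have w2 := window hWf s3 s4
        have w3 : (J' ∩ W).ncard + Y.ncard = (J ∩ W).ncard + X.ncard := by
          have e1 : J' ∩ W = ((J ∩ W) \ Y) ∪ X := by
            ext x
            constructor
            · rintro ⟨hx | hx, hxW⟩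
              · exact Or.inl ⟨⟨hx.1, hxW⟩, hx.2⟩
              · exact Or.inr hx
            · rintro (hx | hx)
              · exact ⟨Or.inl ⟨hx.1.1, hx.2⟩, hx.1.2⟩
              · exact ⟨Or.inr hx, Or.inl (Or.inr hx)⟩
          have hd : Disjoint ((J ∩ W) \ Y) X := by
            rw [disjoint_left]
            exact fun x hx hxX => (disjoint_left.1 hXJ) hxX hx.1.1
          have hYsub : Y ⊆ J ∩ W := fun x hx => ⟨hYJ hx, Or.inr hx⟩
          have hJWf : (J ∩ W).Finite := hWf.subset inter_subset_right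
          rw [e1, ncard_union_eq hd (hJWf.subset sdiff_subset) hXf]
          have := ncard_sdiff_add_ncard_of_subset hYsub hJWf
          omega
        have hb := bound (J := J') hdisj hcov hM' hN'
        rw [← hJ0] at hb
        rw [← (hWf.subset s1).cast_ncard_eq, ← (hWf.subset s2).cast_ncard_eq,
          ← hF.cast_ncard_eq] at hb
        have hb' : (J' \ J0).ncard ≤ (J0 \ J').ncard + (F.ncard + F.ncard) := by
          exact_mod_cast hb
        omega
    | succ n ih =>
      intro J hJM hJN hf1 hf2 hle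
      rcases certificate_or_augment hE hJM hJN with ⟨T, hTJ, hT⟩ | ⟨X, Y, hXf, hYf, hc, hXJ, hYJ,
        hM', hN'⟩
      · exact ⟨T, J \ T, disjoint_sdiff_right, by rwa [union_sdiff_cancel hTJ],
          by rwa [union_sdiff_cancel hTJ], hT⟩
      · set J' := (J \ Y) ∪ X with hJ'
        set W := (J \ J0) ∪ (J0 \ J) ∪ X ∪ Y with hW
        have hWf : W.Finite := ((hf1.union hf2).union hXf).union hYf
        have s1 : J' \ J0 ⊆ W := by
          rintro x ⟨hx | hx, hx0⟩
          · exact Or.inl (Or.inl (Or.inl ⟨hx.1, hx0⟩))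
          · exact Or.inl (Or.inr hx)
        have s2 : J0 \ J' ⊆ W := by
          rintro x ⟨hx0, hx⟩
          by_cases hxJ : x ∈ J
          · by_cases hxY : x ∈ Y
            · exact Or.inr hxY
            · exact absurd (Or.inl ⟨hxJ, hxY⟩) hx
          · exact Or.inl (Or.inl (Or.inr ⟨hx0, hxJ⟩))
        have s3 : J \ J0 ⊆ W := fun x hx => Or.inl (Or.inl (Or.inl hx))
        have s4 : J0 \ J ⊆ W := fun x hx => Or.inl (Or.inl (Or.inr hx))
        have w1 := window hWf s1 s2
        have w2 := window hWf s3 s4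
        have w3 : (J' ∩ W).ncard + Y.ncard = (J ∩ W).ncard + X.ncard := by
          have e1 : J' ∩ W = ((J ∩ W) \ Y) ∪ X := by
            ext x
            constructor
            · rintro ⟨hx | hx, hxW⟩
              · exact Or.inl ⟨⟨hx.1, hxW⟩, hx.2⟩
              · exact Or.inr hx
            · rintro (hx | hx)
              · exact ⟨Or.inl ⟨hx.1.1, hx.2⟩, hx.1.2⟩
              · exact ⟨Or.inr hx, Or.inl (Or.inr hx)⟩
          have hd : Disjoint ((J ∩ W) \ Y) X := by
            rw [disjoint_left]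
            exact fun x hx hxX => (disjoint_left.1 hXJ) hxX hx.1.1
          have hYsub : Y ⊆ J ∩ W := fun x hx => ⟨hYJ hx, Or.inr hx⟩
          have hJWf : (J ∩ W).Finite := hWf.subset inter_subset_right
          rw [e1, ncard_union_eq hd (hJWf.subset sdiff_subset) hXf]
          have := ncard_sdiff_add_ncard_of_subset hYsub hJWf
          omega
        refine ih J' hM' hN' (hWf.subset s1) (hWf.subset s2) ?_
        omega
  refine aux (F.ncard + F.ncard) J0 hM hN ?_ ?_ ?_
  · simp
  · simp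
  · simp

/-- **Invariance of the intersection property under finite perturbations of one matroid.** -/
theorem perturb (hMN : M.E = N.E) (hNN' : N.E = N'.E)
    (h₁ : ∀ I, N.Indep I → ∃ I' ⊆ I, N'.Indep I' ∧ (I \ I').Finite)
    (h₂ : ∀ I, N'.Indep I → ∃ I' ⊆ I, N.Indep I' ∧ (I \ I').Finite)
    (h : Inter M N) : Inter M N' := by
  classical
  obtain ⟨JM, JN, hd, hM, hN, hcov⟩ := h
  obtain ⟨J', hJ'sub, hJ'N', hfin⟩ := h₁ _ hN
  have hJNE : JN ⊆ N.E := subset_union_right.trans hN.subset_ground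
  have hJN'ind : N'.Indep (JN ∩ J') := hJ'N'.subset inter_subset_right
  have hJN'X : JN ∩ J' ⊆ N.closure JN := inter_subset_left.trans (N.subset_closure JN hJNE)
  obtain ⟨Bs, hBs, hBsub⟩ := hJN'ind.subset_isBasis_of_subset hJN'X
    (hNN' ▸ N.closure_subset_ground JN)
  obtain ⟨S, hSB, hSN, hSfin⟩ := h₂ Bs hBs.indep
  have hGfin : (JN \ S).Finite := by
    refine (hfin.union hSfin).subset ?_
    rintro x ⟨hxJ, hxS⟩
    by_cases hxJ' : x ∈ J'
    · exact Or.inr ⟨hBsub ⟨hxJ, hxJ'⟩, hxS⟩
    · exact Or.inl ⟨Or.inr hxJ, hxJ'⟩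
  have hKle : (S \ JN).encard ≤ (JN \ S).encard := by
    apply encard_le_of_subset_closure (M := N) (I := S ∩ JN)
    · exact hSN.subset (union_subset inter_subset_left sdiff_subset)
    · rw [disjoint_left]
      exact fun x hx hx' => hx.2 hx'.2
    · intro x hx
      have hxX : x ∈ N.closure JN := hBs.subset (hSB hx.1)
      refine N.closure_subset_closure ?_ hxX
      intro y hy
      by_cases hyS : y ∈ S
      · exact Or.inl ⟨hyS, hy⟩
      · exact Or.inr ⟨hy, hyS⟩
  have hKfin : (S \ JN).Finite := by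
    rw [← encard_lt_top_iff]
    exact lt_of_le_of_lt hKle (encard_lt_top_iff.2 hGfin)
  have hI2fin : (Bs \ (JN ∩ J')).Finite := by
    refine ((hKfin.union hSfin).union hfin).subset ?_
    rintro x ⟨hxB, hx⟩
    by_cases hxS : x ∈ S
    · by_cases hxJ : x ∈ JN
      · exact Or.inr ⟨Or.inr hxJ, fun hxJ' => hx ⟨hxJ, hxJ'⟩⟩
      · exact Or.inl (Or.inl ⟨hxS, hxJ⟩)
    · exact Or.inl (Or.inr ⟨hxB, hxS⟩)
  refine finite_defect (M := M) (N := N') (hMN.trans hNN') (JM := JM ∩ J') (JN := JN ∩ J')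
    (F := ((JM ∪ JN) \ J') ∪ (Bs \ (JN ∩ J'))) (hfin.union hI2fin)
    (hd.mono inter_subset_left inter_subset_left) ?_ ?_ ?_
  · exact hM.subset (union_subset_union inter_subset_left inter_subset_left)
  · exact hJ'N'.subset (union_subset inter_subset_right inter_subset_right)
  · intro x hx
    rw [← hcov] at hx
    rcases hx with hx | hx
    · left
      refine M.closure_subset_closure ?_ hx
      intro y hy
      by_cases hyJ' : y ∈ J'
      · exact Or.inl ⟨hy, hyJ'⟩
      · exact Or.inr (Or.inl ⟨Or.inl hy, hyJ'⟩)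
    · right
      have hx' : x ∈ N'.closure Bs := hBs.subset_closure hx
      refine N'.closure_subset_closure ?_ hx'
      intro y hy
      by_cases hyJ : y ∈ JN ∩ J'
      · exact Or.inl hyJ
      · exact Or.inr (Or.inr ⟨hy, hyJ⟩)

end Vale.Agent.Lib.P068
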