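import Vale.Agent.Lib.P068.Defect

/-!
# A finite-type class of pairs with the intersection property
-/

namespace Vale.Agent.Lib.P068

open Set Matroid

variable {α : Type*} {M N : Matroid α}

lemma Inter.symm (hE : M.E = N.E) (h : Inter M N) : Inter N M := by
  obtain ⟨JM, JN, hd, hM, hN, hcov⟩ := h
  exact ⟨JN, JM, hd.symm, by rwa [union_comm], by rwa [union_comm],
    by rw [union_comm, hcov, hE]⟩

/-- a subset of `X` missing a base of `N` is finite when `N✶` has finite rank on `X` -/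
lemma finite_of_subset_compl_base {B X G : Set α} (hB : N.IsBase B) (hX : N✶.eRk X < ⊤)
    (hGX : G ⊆ X) (hGE : G ⊆ N.E) (hGB : Disjoint G B) : G.Finite := by
  have hind : N✶.Indep G :=
    hB.compl_isBase_dual.indep.subset (fun x hx => ⟨hGE hx, fun hxB => (disjoint_left.1 hGB) hx hxB⟩)
  rw [← encard_lt_top_iff]
  exact lt_of_le_of_lt (hind.encard_le_eRk_of_subset hGX) hX

theorem four_part_disjoint (hE : M.E = N.E) {E₁ E₂ E₃ E₄ : Set α}
    (hcov : M.E ⊆ E₁ ∪ E₂ ∪ E₃ ∪ E₄) (h24 : Disjoint E₂ E₄)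
    (h₁ : N.eRk E₁ < ⊤) (h₂ : N✶.eRk E₂ < ⊤) (h₃ : M.eRk E₃ < ⊤) (h₄ : M✶.eRk E₄ < ⊤) :
    Inter M N := by
  classical
  obtain ⟨BN, hBN⟩ := N.exists_isBase
  obtain ⟨D2, hD2⟩ := M.exists_isBasis (E₂ ∩ BN)
    (inter_subset_right.trans (hE ▸ hBN.subset_ground))
  obtain ⟨BM, hBM, hD2BM⟩ := hD2.indep.exists_isBase_superset
  have hD2N : N.Indep D2 := hBN.indep.subset (hD2.subset.trans inter_subset_right)
  have hD2E2 : D2 ⊆ E₂ := hD2.subset.trans inter_subset_left
  have hground : D2 ∪ (E₄ ∩ BM) ⊆ N.E :=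
    union_subset hD2N.subset_ground (inter_subset_right.trans (hE ▸ hBM.subset_ground))
  obtain ⟨D, hD, hD2D⟩ := hD2N.subset_isBasis_of_subset
    (subset_union_left : D2 ⊆ D2 ∪ (E₄ ∩ BM)) hground
  have hDM : M.Indep D :=
    hBM.indep.subset (hD.subset.trans (union_subset hD2BM inter_subset_right))
  have hD4sub : D \ D2 ⊆ E₄ ∩ BM := by
    rintro x ⟨hxD, hx2⟩
    exact (hD.subset hxD).resolve_left hx2
  have hD4N : N.Indep (D \ D2) := hD.indep.subset sdiff_subset
  obtain ⟨D4', hD4', hD4D4'⟩ := hD4N.subset_isBasis_of_subset hD4sub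
    (inter_subset_right.trans (hE ▸ hBM.subset_ground))
  -- a basis of `D4' ∪ D2` containing `D4'`
  obtain ⟨Bs, hBs, hD4'Bs⟩ := hD4'.indep.subset_isBasis_of_subset
    (subset_union_left : D4' ⊆ D4' ∪ D2) (union_subset hD4'.indep.subset_ground hD2N.subset_ground)
  obtain ⟨B', hB', hBsB'⟩ := hBs.indep.exists_isBase_superset
  have hGfin : (D2 \ Bs).Finite := by
    refine finite_of_subset_compl_base hB' h₂ (sdiff_subset.trans hD2E2)
      (sdiff_subset.trans hD2N.subset_ground) ?_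
    rw [disjoint_left]
    rintro x ⟨hx2, hxBs⟩ hxB'
    exact hxBs (hBs.mem_of_insert_indep (Or.inr hx2)
      (hB'.indep.subset (insert_subset hxB' hBsB')))
  have hTle : (D4' \ (D \ D2)).encard ≤ (D2 \ Bs).encard := by
    apply encard_le_of_subset_closure (M := N) (I := Bs \ (D4' \ (D \ D2)))
    · exact hBs.indep.subset (union_subset sdiff_subset (sdiff_subset.trans hD4'Bs))
    · exact disjoint_sdiff_right
    · intro x hx
      have hxD : x ∈ N.closure D := hD.subset_closure (Or.inr (hD4'.subset hx.1))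
      refine N.closure_subset_closure ?_ hxD
      intro y hy
      by_cases hy2 : y ∈ D2
      · by_cases hyBs : y ∈ Bs
        · refine Or.inl ⟨hyBs, fun hyT => ?_⟩
          exact (disjoint_left.1 h24) (hD2E2 hy2) (hD4'.subset hyT.1).1
        · exact Or.inr ⟨hy2, hyBs⟩
      · exact Or.inl ⟨hD4'Bs (hD4D4' ⟨hy, hy2⟩), fun hyT => hyT.2 ⟨hy, hy2⟩⟩
  have hTfin : (D4' \ (D \ D2)).Finite := by
    rw [← encard_lt_top_iff]
    exact lt_of_le_of_lt hTle (encard_lt_top_iff.2 hGfin)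
  obtain ⟨F1, hF1⟩ := N.exists_isBasis' E₁
  obtain ⟨F3, hF3⟩ := M.exists_isBasis' E₃
  have hF1fin : F1.Finite := by
    rw [← encard_lt_top_iff, hF1.encard_eq_eRk]; exact h₁
  have hF3fin : F3.Finite := by
    rw [← encard_lt_top_iff, hF3.encard_eq_eRk]; exact h₃
  have hF2fin : ((E₂ ∩ N.E) \ BN).Finite :=
    finite_of_subset_compl_base hBN h₂ (sdiff_subset.trans inter_subset_left)
      (sdiff_subset.trans inter_subset_right) disjoint_sdiff_left
  have hF4fin : ((E₄ ∩ M.E) \ BM).Finite :=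
    finite_of_subset_compl_base hBM h₄ (sdiff_subset.trans inter_subset_left)
      (sdiff_subset.trans inter_subset_right) disjoint_sdiff_left
  set F := F1 ∪ F3 ∪ ((E₂ ∩ N.E) \ BN) ∪ ((E₄ ∩ M.E) \ BM) ∪ (D4' \ (D \ D2)) with hF
  have hFfin : F.Finite := (((hF1fin.union hF3fin).union hF2fin).union hF4fin).union hTfin
  have hunion : D2 ∪ (D \ D2) = D := union_sdiff_cancel hD2D
  refine finite_defect hE (JM := D2) (JN := D \ D2) (F := F) hFfin disjoint_sdiff_right
    (by rwa [hunion]) (by rw [hunion]; exact hD.indep) ?_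
  intro x hx
  have hxN : x ∈ N.E := hE ▸ hx
  rcases hcov hx with ((hx1 | hx2) | hx3) | hx4
  · right
    have : x ∈ N.closure F1 := by
      rw [hF1.closure_eq_closure]
      exact N.inter_ground_subset_closure E₁ ⟨hx1, hxN⟩
    refine N.closure_subset_closure ?_ this
    exact fun y hy => Or.inr (Or.inl (Or.inl (Or.inl (Or.inl hy))))
  · left
    by_cases hxB : x ∈ BN
    · exact M.closure_subset_closure subset_union_left (hD2.subset_closure ⟨hx2, hxB⟩)
    · exact M.mem_closure_of_mem' (Or.inr (Or.inl (Or.inl (Or.inr ⟨⟨hx2, hxN⟩, hxB⟩)))) hx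
  · left
    have : x ∈ M.closure F3 := by
      rw [hF3.closure_eq_closure]
      exact M.inter_ground_subset_closure E₃ ⟨hx3, hx⟩
    refine M.closure_subset_closure ?_ this
    exact fun y hy => Or.inr (Or.inl (Or.inl (Or.inl (Or.inr hy))))
  · by_cases hxB : x ∈ BM
    · right
      have : x ∈ N.closure D4' := hD4'.subset_closure ⟨hx4, hxB⟩
      refine N.closure_subset_closure ?_ this
      intro y hy
      by_cases hyD : y ∈ D \ D2
      · exact Or.inl hyD
      · exact Or.inr (Or.inr ⟨hy, hyD⟩)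
    · left
      exact M.mem_closure_of_mem' (Or.inr (Or.inl (Or.inr ⟨⟨hx4, hx⟩, hxB⟩))) hx

theorem four_part (hE : M.E = N.E) {E₁ E₂ E₃ E₄ : Set α}
    (hcov : M.E ⊆ E₁ ∪ E₂ ∪ E₃ ∪ E₄)
    (h₁ : N.eRk E₁ < ⊤) (h₂ : N✶.eRk E₂ < ⊤) (h₃ : M.eRk E₃ < ⊤) (h₄ : M✶.eRk E₄ < ⊤) :
    Inter M N := by
  classical
  refine four_part_disjoint hE (E₁ := E₁) (E₂ := E₂) (E₃ := E₃) (E₄ := E₄ \ E₂) ?_
    disjoint_sdiff_right h₁ h₂ h₃ (lt_of_le_of_lt (M✶.eRk_mono sdiff_subset) h₄)
  intro x hx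
  rcases hcov hx with ((hx1 | hx2) | hx3) | hx4
  · exact Or.inl (Or.inl (Or.inl hx1))
  · exact Or.inl (Or.inl (Or.inr hx2))
  · exact Or.inl (Or.inr hx3)
  · by_cases hx2 : x ∈ E₂
    · exact Or.inl (Or.inl (Or.inr hx2))
    · exact Or.inr ⟨hx4, hx2⟩

end Vale.Agent.Lib.P068
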