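import Mathlib.Combinatorics.Matroid.Minor.Contract
import Mathlib.Order.Zorn

/-!
# Packing/covering for families with at most one non-uniform member
-/

namespace Vale.Agent.Lib.P068

open Set Matroid

variable {α ι : Type*}

/-- Either the family has pairwise disjoint bases, or the ground set is covered by independent
sets, provided every member except possibly `i₀` is uniform. -/
theorem pack_or_cover (M : ι → Matroid α) (E : Set α) (hE : ∀ i, (M i).E = E) (i₀ : ι)
    (hU : ∀ i, i ≠ i₀ → ∀ X ⊆ (M i).E, (M i).Indep X ∨ (M i).Spanning X) :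
    (∃ S : ι → Set α, Pairwise (fun i j => Disjoint (S i) (S j)) ∧ ∀ i, (M i).IsBase (S i)) ∨
    (∃ I : ι → Set α, (∀ i, (M i).Indep (I i)) ∧ (⋃ i, I i) = E) := by
  classical
  obtain ⟨B₀, hB₀⟩ := (M i₀).exists_isBase
  let P : Set (ι → Set α) := {S | S i₀ = B₀ ∧ (∀ i, S i = ∅ ∨ (M i).IsBase (S i)) ∧
    Pairwise (fun i j => Disjoint (S i) (S j))}
  have hS0 : (fun i => if i = i₀ then B₀ else ∅) ∈ P := by
    refine ⟨by simp, fun i => ?_, fun i j hij => ?_⟩
    · by_cases hi : i = i₀
      · subst hi; right; simpa using hB₀
      · left; simp [hi]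
    · by_cases hi : i = i₀
      · have hj : j ≠ i₀ := fun h => hij (hi.trans h.symm)
        simp [hj]
      · simp [hi]
  obtain ⟨S, -, hSmax⟩ := zorn_le_nonempty₀ P (by
    intro c hcP hc y hy
    refine ⟨fun i => ⋃ T ∈ c, T i, ⟨?_, ?_, ?_⟩, ?_⟩
    · apply subset_antisymm
      · exact iUnion₂_subset (fun T hT => (hcP hT).1.subset)
      · exact (hcP hy).1.symm.subset.trans (subset_biUnion_of_mem (u := fun T => T i₀) hy)
    · intro i
      by_cases hex : ∃ T ∈ c, T i ≠ ∅
      · obtain ⟨T, hT, hTi⟩ := hex
        have hTb : (M i).IsBase (T i) := ((hcP hT).2.1 i).resolve_left hTi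
        right
        have : (⋃ T' ∈ c, T' i) = T i := by
          apply subset_antisymm
          · refine iUnion₂_subset (fun T' hT' => ?_)
            rcases (hcP hT').2.1 i with h0 | hb
            · rw [h0]; exact empty_subset _
            · rcases hc.total hT hT' with hle | hle
              · exact (hTb.eq_of_subset_isBase hb (hle i)).symm.subset
              · exact hle i
          · exact subset_biUnion_of_mem (u := fun T => T i) hT
        simp only [this]
        exact hTb
      · left
        push Not at hex
        simp only [iUnion_eq_empty]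
        exact hex
    · intro i j hij
      simp only [disjoint_left, mem_iUnion, not_exists]
      rintro x ⟨T, hT, hxT⟩ T' hT' hxT'
      rcases hc.total hT hT' with hle | hle
      · exact (disjoint_left.1 ((hcP hT').2.2 hij)) (hle i hxT) hxT'
      · exact (disjoint_left.1 ((hcP hT).2.2 hij)) hxT (hle j hxT')
    · intro z hz i
      exact subset_biUnion_of_mem (u := fun T => T i) hz) _ hS0
  obtain ⟨hSP, hmax⟩ := hSmax
  by_cases hall : ∀ i, (M i).IsBase (S i)
  · exact Or.inl ⟨S, hSP.2.2, hall⟩
  right
  push Not at hall
  obtain ⟨i₁, hi₁⟩ := hall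
  have hS1 : S i₁ = ∅ := (hSP.2.1 i₁).resolve_right hi₁
  have hne : i₁ ≠ i₀ := by
    rintro rfl
    exact hi₁ (hSP.1 ▸ hB₀)
  set R := E \ ⋃ i, S i with hR
  have hRE : R ⊆ (M i₁).E := by rw [hE]; exact sdiff_subset
  have hRind : (M i₁).Indep R := by
    rcases hU i₁ hne R hRE with h | h
    · exact h
    exfalso
    obtain ⟨B₁, hB₁, hB₁R⟩ := h.exists_isBase_subset
    have hS' : Function.update S i₁ B₁ ∈ P := by
      refine ⟨by rw [Function.update_of_ne hne.symm]; exact hSP.1, fun i => ?_, fun i j hij => ?_⟩
      · by_cases hi : i = i₁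
        · subst hi; right; simpa using hB₁
        · rw [Function.update_of_ne hi]; exact hSP.2.1 i
      · show Disjoint (Function.update S i₁ B₁ i) (Function.update S i₁ B₁ j)
        by_cases hi : i = i₁
        · subst hi
          rw [Function.update_self, Function.update_of_ne hij.symm, disjoint_left]
          intro x hx hxj
          exact (hB₁R hx).2 (mem_iUnion.2 ⟨j, hxj⟩)
        · by_cases hj : j = i₁
          · subst hj
            rw [Function.update_self, Function.update_of_ne hi, disjoint_left]
            intro x hxi hx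
            exact (hB₁R hx).2 (mem_iUnion.2 ⟨i, hxi⟩)
          · rw [Function.update_of_ne hi, Function.update_of_ne hj]
            exact hSP.2.2 hij
    have hle : S ≤ Function.update S i₁ B₁ := by
      intro i
      by_cases hi : i = i₁
      · subst hi; rw [hS1]; exact empty_subset _
      · rw [Function.update_of_ne hi]
    have hge := hmax hS' hle i₁
    rw [Function.update_self, hS1] at hge
    have : B₁ = ∅ := subset_empty_iff.1 hge
    exact hi₁ (by rw [hS1, ← this]; exact hB₁)
  refine ⟨Function.update S i₁ R, fun i => ?_, ?_⟩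
  · by_cases hi : i = i₁
    · subst hi; simpa using hRind
    · rw [Function.update_of_ne hi]
      rcases hSP.2.1 i with h0 | hb
      · rw [h0]; exact (M i).empty_indep
      · exact hb.indep
  · apply subset_antisymm
    · refine iUnion_subset (fun i => ?_)
      by_cases hi : i = i₁
      · subst hi; rw [Function.update_self]; exact sdiff_subset
      · rw [Function.update_of_ne hi]
        rcases hSP.2.1 i with h0 | hb
        · rw [h0]; exact empty_subset _
        · exact (hE i) ▸ hb.subset_ground
    · intro x hx
      by_cases hxS : x ∈ ⋃ i, S i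
      · obtain ⟨i, hxi⟩ := mem_iUnion.1 hxS
        have hi : i ≠ i₁ := by
          rintro rfl
          rw [hS1] at hxi
          exact hxi
        exact mem_iUnion.2 ⟨i, by rw [Function.update_of_ne hi]; exact hxi⟩
      · exact mem_iUnion.2 ⟨i₁, by rw [Function.update_self]; exact ⟨hx, hxS⟩⟩

end Vale.Agent.Lib.P068
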